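import Vale.Agent.P199.Core

set_option linter.unusedSectionVars false
set_option linter.unusedVariables false

universe u v

open Vale.Agent.P199

theorem Vale.Agent.Results.P199.ElementaryAmenable.result
    {k : Type v} {D : Type u} [Field k] [DivisionRing D] [Algebra k D]
    (G : Subgroup Dˣ) (halg : ∀ g ∈ G, IsAlgebraic k ((g : Dˣ) : D)) :
    (IsElementaryAmenable G →
      IsLocallyFiniteOver k (Algebra.adjoin k ((fun u : Dˣ => (u : D)) '' (G : Set Dˣ)))) ∧
    (∀ (N : Subgroup G) [N.Normal],
      IsLocallyFiniteOver k (Algebra.adjoin k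
        ((fun u : Dˣ => (u : D)) '' ((N.map G.subtype : Subgroup Dˣ) : Set Dˣ))) →
      IsElementaryAmenable (G ⧸ N) →
      IsLocallyFiniteOver k (Algebra.adjoin k ((fun u : Dˣ => (u : D)) '' (G : Set Dˣ)))) ∧
    (∀ H : Subgroup G, H.FiniteIndex → Group.IsSolvable H →
      IsElementaryAmenable G ∧
      (G.FG → ∃ B : Subgroup G, B.FiniteIndex ∧ ∀ a ∈ B, ∀ b ∈ B, a * b = b * a)) := by
  have hint : ∀ g ∈ G, IsIntegral k ((g : Dˣ) : D) := fun g hg => (halg g hg).isIntegral
  refine ⟨fun h => locallyFinite_of_good G (good_of_ea G hint h), ?_, ?_⟩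
  · intro N _ hN hQ
    apply locallyFinite_of_good
    apply extProp_of_ea (k := k) (D := D) (G ⧸ N) hQ G (QuotientGroup.mk' N) hint
    rw [QuotientGroup.ker_mk']
    exact good_of_locallyFinite _ hN
  · intro H hH hS
    refine ⟨ea_of_virtually_solvable _ H hH hS, fun hfg => ?_⟩
    exact virtually_abelian_of_virtually_solvable k G hint hfg H hH hS
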