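import Vale.Agent.P199.Core

set_option linter.unusedSectionVars false
set_option linter.unusedVariables false

universe u v

open Vale.Agent.P199

theorem Vale.Agent.Results.P199.LocallySolvable.result
    {k : Type v} {D : Type u} [Field k] [DivisionRing D] [Algebra k D]
    (G : Subgroup Dˣ) (halg : ∀ g ∈ G, IsAlgebraic k ((g : Dˣ) : D))
    (hG : ∀ G₀ : Subgroup Dˣ, G₀ ≤ G → G₀.FG →
      ∃ H : Subgroup G₀, H.FiniteIndex ∧ Group.IsSolvable H) :
    (∀ G₀ : Subgroup Dˣ, G₀ ≤ G → G₀.FG →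
      (∃ B : Subgroup G₀, B.FiniteIndex ∧ ∀ a ∈ B, ∀ b ∈ B, a * b = b * a) ∧
      Module.Finite k (Algebra.adjoin k ((fun u : Dˣ => (u : D)) '' (G₀ : Set Dˣ)))) ∧
    (∀ X : Set D, X.Finite → X ⊆ Algebra.adjoin k ((fun u : Dˣ => (u : D)) '' (G : Set Dˣ)) →
      Module.Finite k (Algebra.adjoin k X)) := by
  have hint : ∀ g ∈ G, IsIntegral k ((g : Dˣ) : D) := fun g hg => (halg g hg).isIntegral
  have hgood : Good k G := by
    intro H hHG hfg
    obtain ⟨B, hB, hS⟩ := hG H hHG hfg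
    exact good_of_ea H (fun g hg => hint g (hHG hg)) (ea_of_virtually_solvable _ B hB hS) H le_rfl hfg
  refine ⟨fun G₀ hle hfg => ?_, locallyFinite_of_good G hgood⟩
  obtain ⟨H, hH, hS⟩ := hG G₀ hle hfg
  exact ⟨virtually_abelian_of_virtually_solvable k G₀ (fun g hg => hint g (hle hg)) hfg H hH hS,
    hgood G₀ hle hfg⟩
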